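import Vale.Agent.Lib.P062.Thr.Reduce2

open Vale.Agent.Lib.P062.Thr in
/-- From the empty board Maker can force an allowed copy of Snaky or, up to the symmetries of the
plane, one of two positions with Maker to move; hence wins of Maker from both positions give a
winning strategy of Maker on the empty board. -/
theorem Vale.Agent.Results.P062.ABothPositions.result :
    ForcesWinOr IsAB ∅ ∅ ∧
      (MakerWins AM AB1 → MakerWins AM AB2 → Vale.Agent.Lib.P062.MakerHasWinningStrategy) :=
  ⟨forces_root2, strategy_of_AB⟩
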