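import Vale.Agent.Lib.P062.Thr.Reduce

open Vale.Agent.Lib.P062.Thr in
/-- From the empty board Maker can force either an allowed copy of Snaky or, up to the symmetries of
the plane, the single position `T` with Maker to move; hence a win of Maker from `T` gives a winning
strategy of Maker on the empty board. -/
theorem Vale.Agent.Results.P062.AllButOnePosition.result :
    ForcesWinOr IsT ∅ ∅ ∧
      (MakerWins TM TB → Vale.Agent.Lib.P062.MakerHasWinningStrategy) :=
  ⟨forces_root, strategy_of_T⟩
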