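import Vale.Agent.Lib.P062.Far
import Vale.Agent.Lib.P062.Certs.Cert_r2_1
import Vale.Agent.Lib.P062.Certs.Cert_r2_2
import Vale.Agent.Lib.P062.Certs.Cert_r3_0
import Vale.Agent.Lib.P062.Certs.Cert_r3_1

/-!
Snaky on the plane: Maker opens at the origin and wins against every first reply of Breaker at
`ℓ¹` distance at least three from the origin. The tree certificates for four first replies are checked
by computation in the kernel, and the remaining replies follow from the symmetries of the board and from
the zones of the proofs.
-/

namespace Vale.Agent.Results.P062.FarReplies

open Vale.Agent.Lib.P062

/-- The certified classes: a first reply, as a window bit, and the zone of its proof. -/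
def classes : List (ℕ × ℕ) :=
  [(129, r2_1_zone), (144, r2_2_zone), (115, r3_0_zone), (130, r3_1_zone)]

theorem cover : coverFarOK classes = true := by
  decide +kernel

theorem result : MakerWinsAgainstFarReplies := by
  refine farWins_of_classes classes ?_ ?_ cover
  · intro c hc
    simp only [classes, List.mem_cons, List.not_mem_nil, or_false] at hc
    rcases hc with rfl | rfl | rfl | rfl
    · exact r2_1_ok
    · exact r2_2_ok
    · exact r3_0_ok
    · exact r3_1_ok
  · intro c hc
    simp only [classes, List.mem_cons, List.not_mem_nil, or_false] at hc
    rcases hc with rfl | rfl | rfl | rfl <;> decide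

end Vale.Agent.Results.P062.FarReplies
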