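import Vale.Agent.Lib.P062.LineL2
import Vale.Agent.Lib.P062.LineL3
import Vale.Agent.Lib.P062.Certs.Cert_r1_1
import Vale.Agent.Lib.P062.Certs.Cert_r2_0
import Vale.Agent.Lib.P062.Certs.Cert_r2_1
import Vale.Agent.Lib.P062.Certs.Cert_r2_2
import Vale.Agent.Lib.P062.Certs.Cert_r3_0
import Vale.Agent.Lib.P062.Certs.Cert_r3_1

/-!
Snaky on the plane: Maker opens at the origin and wins against every legal play of Breaker except a
single line of play, up to the symmetries of the board. The tree certificates for the other
replies at each of the three levels are checked by computation in the kernel.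
-/

namespace Vale.Agent.Results.P062.LineReduction

open Vale.Agent.Lib.P062

/-- The certified first replies, as window bits, and the zones of their proofs. -/
def classes : List (ℕ × ℕ) :=
  [(128, r1_1_zone), (114, r2_0_zone), (129, r2_1_zone), (144, r2_2_zone), (115, r3_0_zone),
    (130, r3_1_zone)]

theorem cover : coverAdjOK classes = true := by
  decide +kernel

theorem result : MakerWinsOffOneLine := by
  obtain ⟨D1, h1⟩ := forces_adj classes (by
    intro c hc
    simp only [classes, List.mem_cons, List.not_mem_nil, or_false] at hc
    rcases hc with rfl | rfl | rfl | rfl | rfl | rfl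
    · exact r1_1_ok
    · exact r2_0_ok
    · exact r2_1_ok
    · exact r2_2_ok
    · exact r3_0_ok
    · exact r3_1_ok) (by
    intro c hc
    simp only [classes, List.mem_cons, List.not_mem_nil, or_false] at hc
    rcases hc with rfl | rfl | rfl | rfl | rfl | rfl <;> decide) cover
  obtain ⟨D2, h2⟩ := L2_forces
  obtain ⟨D3, h3⟩ := L3_forces
  exact line_result h1 h2 h3

end Vale.Agent.Results.P062.LineReduction
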