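import Vale.Agent.Lib.P062.Thr.Final

open Vale.Agent.Lib.P062.Thr in
/-- After Maker claims the origin, every reply of Breaker at a cell `b` with
`max (|b.1|, |b.2|) ≥ 2` loses, so the whole game reduces to the two positions below. -/
theorem Vale.Agent.Results.P062.NearReplies.result :
    (∀ b : Cell, 2 ≤ |b.1| ∨ 2 ≤ |b.2| → MakerWins {(0, 0)} {b}) ∧
    (MakerWins {(0, 0)} {(1, 0)} → MakerWins {(0, 0)} {(1, 1)} → MakerWins ∅ ∅) :=
  ⟨main_W, fun h1 h2 => full_of_hard h1 h2⟩
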