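import Vale.Agent.Lib.P062.Adj
import Vale.Agent.Lib.P062.Certs.Cert_r1_1
import Vale.Agent.Lib.P062.Certs.Cert_r2_0
import Vale.Agent.Lib.P062.Certs.Cert_r2_1
import Vale.Agent.Lib.P062.Certs.Cert_r2_2
import Vale.Agent.Lib.P062.Certs.Cert_r3_0
import Vale.Agent.Lib.P062.Certs.Cert_r3_1

/-!
Snaky on the plane: Maker opens at the origin and wins against every first reply of Breaker other
than the four cells sharing an edge with the origin. The tree certificates for six first replies are checked by
computation in the kernel, and the remaining replies follow from the symmetries of the board and from the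
zones of the proofs.
-/

namespace Vale.Agent.Results.P062.NonAdjacentReplies

open Vale.Agent.Lib.P062

/-- The certified classes: a first reply, as a window bit, and the zone of its proof. -/
def classes : List (ℕ × ℕ) :=
  [(128, r1_1_zone), (114, r2_0_zone), (129, r2_1_zone), (144, r2_2_zone), (115, r3_0_zone),
    (130, r3_1_zone)]

theorem cover : coverAdjOK classes = true := by
  decide +kernel

theorem result : MakerWinsAgainstNonAdjacentReplies := by
  refine adjWins_of_classes classes ?_ ?_ cover
  · intro c hc
    simp only [classes, List.mem_cons, List.not_mem_nil, or_false] at hc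
    rcases hc with rfl | rfl | rfl | rfl | rfl | rfl
    · exact r1_1_ok
    · exact r2_0_ok
    · exact r2_1_ok
    · exact r2_2_ok
    · exact r3_0_ok
    · exact r3_1_ok
  · intro c hc
    simp only [classes, List.mem_cons, List.not_mem_nil, or_false] at hc
    rcases hc with rfl | rfl | rfl | rfl | rfl | rfl <;> decide

end Vale.Agent.Results.P062.NonAdjacentReplies
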