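import Vale.Agent.Lib.P062.King
import Vale.Agent.Lib.P062.Certs.Cert_r2_0
import Vale.Agent.Lib.P062.Certs.Cert_r2_1
import Vale.Agent.Lib.P062.Certs.Cert_r2_2
import Vale.Agent.Lib.P062.Certs.Cert_r3_0
import Vale.Agent.Lib.P062.Certs.Cert_r3_1

/-!
Snaky on the plane: Maker opens at the origin and wins against every first reply of Breaker that is
not one of the eight neighbours of the origin. The tree certificates for five first replies are checked by
computation in the kernel, and the remaining replies follow from the symmetries of the board and from the
zones of the proofs.
-/

namespace Vale.Agent.Results.P062.NonNeighbourReplies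

open Vale.Agent.Lib.P062

/-- The certified classes: a first reply, as a window bit, and the zone of its proof. -/
def classes : List (ℕ × ℕ) :=
  [(114, r2_0_zone), (129, r2_1_zone), (144, r2_2_zone), (115, r3_0_zone), (130, r3_1_zone)]

theorem cover : coverKingOK classes = true := by
  decide +kernel

theorem result : MakerWinsAgainstNonNeighbourReplies := by
  refine kingWins_of_classes classes ?_ ?_ cover
  · intro c hc
    simp only [classes, List.mem_cons, List.not_mem_nil, or_false] at hc
    rcases hc with rfl | rfl | rfl | rfl | rfl
    · exact r2_0_ok
    · exact r2_1_ok
    · exact r2_2_ok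
    · exact r3_0_ok
    · exact r3_1_ok
  · intro c hc
    simp only [classes, List.mem_cons, List.not_mem_nil, or_false] at hc
    rcases hc with rfl | rfl | rfl | rfl | rfl <;> decide

end Vale.Agent.Results.P062.NonNeighbourReplies
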